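import Vale.Agent.Lib.P181.Omni.Trunc

/-!
The recursive count of set partitions with at most `a` blocks of size at most `b`,
and its link with the polynomials `UU a b`.
-/

namespace Vale.Agent.Lib.P181.Omni

open Polynomial Finset

/-- `cnt b a k`: number of set partitions of a `k`-element set into at most `a` blocks,
each of size at most `b`, defined by the recursion on the block containing a fixed point. -/
def cnt (b : ℕ) : ℕ → ℕ → ℕ
  | 0, k => if k = 0 then 1 else 0
  | _ + 1, 0 => 1
  | a + 1, k + 1 =>
      ∑ j ∈ Finset.range (k + 1), if j + 1 ≤ b then k.choose j * cnt b a (k - j) else 0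

theorem coeff_zero_PP_pow (b r : ℕ) (hr : 1 ≤ r) : (PP b ^ r).coeff 0 = 0 := by
  rw [coeff_zero_eq_eval_zero, eval_pow]
  have : eval 0 (PP b) = 0 := by
    rw [← coeff_zero_eq_eval_zero, coeff_PP]; simp
  rw [this]
  exact zero_pow (by omega)

theorem coeff_zero_UU (a b : ℕ) : (UU a b).coeff 0 = 1 := by
  unfold UU
  rw [finsetSum_coeff, Finset.sum_eq_single 0]
  · simp
  · intro r _ hr
    rw [coeff_C_mul, coeff_zero_PP_pow b r (by omega), mul_zero]
  · intro h; simp at h

theorem UU_zero (b : ℕ) : UU 0 b = 1 := by
  unfold UU; simp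

theorem coeff_derivative_PP (b j : ℕ) :
    (derivative (PP b)).coeff j = if j + 1 ≤ b then 1 / (j.factorial : ℚ) else 0 := by
  rw [coeff_derivative, coeff_PP]
  by_cases h : j + 1 ≤ b
  · rw [if_pos ⟨by omega, h⟩, if_pos h, Nat.factorial_succ]
    push_cast
    field_simp
  · rw [if_neg (fun h' => h h'.2), if_neg h, zero_mul]

theorem derivative_UU_succ (a b : ℕ) :
    derivative (UU (a + 1) b) = derivative (PP b) * UU a b := by
  unfold UU
  rw [derivative_sum, Finset.sum_range_succ', Finset.mul_sum]
  simp only [pow_zero, mul_one, derivative_C, add_zero]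
  apply Finset.sum_congr rfl
  intro r _
  rw [derivative_C_mul, derivative_pow, Nat.add_sub_cancel]
  have h1 : (C (1 / ((r + 1).factorial : ℚ)) : ℚ[X]) * C ((r + 1 : ℕ) : ℚ)
      = C (1 / (r.factorial : ℚ)) := by
    rw [← C_mul]
    congr 1
    rw [Nat.factorial_succ]
    push_cast
    field_simp
  calc C (1 / ((r + 1).factorial : ℚ)) * (C ((r + 1 : ℕ) : ℚ) * PP b ^ r * derivative (PP b))
      = (C (1 / ((r + 1).factorial : ℚ)) * C ((r + 1 : ℕ) : ℚ)) * PP b ^ r * derivative (PP b) := by
        ring
    _ = derivative (PP b) * (C (1 / (r.factorial : ℚ)) * PP b ^ r) := by rw [h1]; ring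

theorem cnt_eq (b a k : ℕ) : (cnt b a k : ℚ) = (k.factorial : ℚ) * (UU a b).coeff k := by
  induction a generalizing k with
  | zero =>
    rw [UU_zero, coeff_one]
    cases k with
    | zero => simp [cnt]
    | succ k => simp [cnt]
  | succ a ih =>
    cases k with
    | zero => simp [cnt, coeff_zero_UU]
    | succ k =>
      have hd : (UU (a + 1) b).coeff (k + 1) * ((k : ℚ) + 1)
          = ∑ j ∈ Finset.range (k + 1), (derivative (PP b)).coeff j * (UU a b).coeff (k - j) := by
        rw [← coeff_derivative, derivative_UU_succ, coeff_mul,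
          Finset.Nat.sum_antidiagonal_eq_sum_range_succ_mk]
      have hf : ((k + 1).factorial : ℚ) * (UU (a + 1) b).coeff (k + 1)
          = (k.factorial : ℚ) * ((UU (a + 1) b).coeff (k + 1) * ((k : ℚ) + 1)) := by
        rw [Nat.factorial_succ]; push_cast; ring
      rw [hf, hd, Finset.mul_sum]
      simp only [cnt]
      push_cast
      apply Finset.sum_congr rfl
      intro j hj
      have hj' : j ≤ k := by have := Finset.mem_range.mp hj; omega
      rw [coeff_derivative_PP]
      by_cases h : j + 1 ≤ b
      · rw [if_pos h, if_pos h, ih (k - j)]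
        have hc := Nat.choose_mul_factorial_mul_factorial hj'
        have hc' : ((k.choose j : ℕ) : ℚ) * (j.factorial : ℚ) * ((k - j).factorial : ℚ)
            = (k.factorial : ℚ) := by exact_mod_cast hc
        have hj0 : (j.factorial : ℚ) ≠ 0 := by positivity
        rw [← hc']
        field_simp
      · rw [if_neg h, if_neg h]; simp

/-- the main numerical inequality -/
theorem cnt_le (a b k : ℕ) (hab : a ≤ b) : cnt b a k ≤ cnt a b k := by
  have h := key_UU a b hab k
  have h1 := cnt_eq b a k
  have h2 := cnt_eq a b k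
  have : (cnt b a k : ℚ) ≤ (cnt a b k : ℚ) := by
    rw [h1, h2]
    exact mul_le_mul_of_nonneg_left h (by positivity)
  exact_mod_cast this

end Vale.Agent.Lib.P181.Omni
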