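import Vale.Agent.Lib.P181.Omni.Count

/-!
Counting multisets of multisets with a prescribed hook-shaped content:
the number of `S : Sym (Sym σ b) a` in which a letter `z` occurs `m` times, each letter of a finset
`D` occurs exactly once and no other letter occurs is `cnt b a (card D)` when `m + card D = a * b`
(and `0` otherwise).
-/

namespace Vale.Agent.Lib.P181.Omni

open Finset

variable {σ : Type*} [DecidableEq σ]

/-- number of occurrences of the letter `i` in a multiset of multisets -/
def occ {b a : ℕ} (S : Sym (Sym σ b) a) (i : σ) : ℕ :=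
  ((S : Multiset (Sym σ b)).map (fun t : Sym σ b => (t : Multiset σ).count i)).sum

theorem occ_cons {b a : ℕ} (t : Sym σ b) (S : Sym (Sym σ b) a) (i : σ) :
    occ (t ::ₛ S) i = (t : Multiset σ).count i + occ S i := by
  unfold occ
  rw [Sym.coe_cons, Multiset.map_cons, Multiset.sum_cons]

theorem occ_nil {b : ℕ} (S : Sym (Sym σ b) 0) (i : σ) : occ S i = 0 := by
  have : S = Sym.nil := Sym.eq_nil_of_card_zero S
  subst this
  simp [occ]

/-- the hook-shaped content: `m` at `z`, `1` on `D`, `0` elsewhere -/
def hookContent (z : σ) (m : ℕ) (D : Finset σ) (i : σ) : ℕ :=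
  if i = z then m else if i ∈ D then 1 else 0

/-- the block containing `x`, the letters of `T` and filled up with `z` -/
def blkM (b : ℕ) (z x : σ) (T : Finset σ) : Multiset σ :=
  x ::ₘ (T.val + Multiset.replicate (b - 1 - T.card) z)

omit [DecidableEq σ] in
theorem card_blkM (b : ℕ) (z x : σ) (T : Finset σ) (h : T.card + 1 ≤ b) :
    Multiset.card (blkM b z x T) = b := by
  simp only [blkM, Multiset.card_cons, Multiset.card_add, Finset.card_val, Multiset.card_replicate]
  omega

theorem count_blkM (b : ℕ) (z x : σ) (T : Finset σ) (i : σ) :
    (blkM b z x T).count i = (if i = x then 1 else 0) + (if i ∈ T then 1 else 0)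
      + (if i = z then b - 1 - T.card else 0) := by
  unfold blkM
  rw [Multiset.count_cons, Multiset.count_add, Multiset.count_replicate,
    Multiset.count_eq_of_nodup T.nodup]
  simp only [Finset.mem_val]
  have e2 : (if z = i then b - 1 - T.card else 0) = (if i = z then b - 1 - T.card else 0) := by
    by_cases h : i = z
    · subst h; simp
    · simp [h, Ne.symm h]
  rw [e2]
  ring

/-- the block as an element of `Sym σ b` (junk value when it does not fit) -/
def blkS (b : ℕ) (z x : σ) (T : Finset σ) : Sym σ b :=
  if h : T.card + 1 ≤ b then Sym.mk (blkM b z x T) (card_blkM b z x T h) else Sym.replicate b z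

omit [DecidableEq σ] in
theorem coe_blkS (b : ℕ) (z x : σ) (T : Finset σ) (h : T.card + 1 ≤ b) :
    ((blkS b z x T : Sym σ b) : Multiset σ) = blkM b z x T := by
  simp [blkS, h]


theorem count_le_occ {b a : ℕ} {S : Sym (Sym σ b) a} {t : Sym σ b} (ht : t ∈ S) (i : σ) :
    (t : Multiset σ).count i ≤ occ S i := by
  cases a with
  | zero => exact absurd ht (by rw [Sym.eq_nil_of_card_zero S]; exact Sym.notMem_nil t)
  | succ a =>
    obtain ⟨S', rfl⟩ := Sym.exists_cons_of_mem ht
    rw [occ_cons]
    exact Nat.le_add_right _ _

theorem occ_replicate (b a : ℕ) (z i : σ) :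
    occ (Sym.replicate a (Sym.replicate b z) : Sym (Sym σ b) a) i = if i = z then a * b else 0 := by
  induction a with
  | zero => simp [occ_nil]
  | succ a ih =>
    rw [Sym.replicate_succ, occ_cons, ih, Sym.coe_replicate, Multiset.count_replicate]
    by_cases h : i = z
    · subst h; simp; ring
    · simp [h, Ne.symm h]

variable [Fintype σ]

/-- multisets of `a` multisets of size `b` with content `m` at `z`, `1` on `D`, `0` elsewhere -/
def WW (b a : ℕ) (z : σ) (m : ℕ) (D : Finset σ) : Finset (Sym (Sym σ b) a) :=
  Finset.univ.filter (fun S => ∀ i, occ S i = hookContent z m D i)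

theorem mem_WW {b a : ℕ} {z : σ} {m : ℕ} {D : Finset σ} {S : Sym (Sym σ b) a} :
    S ∈ WW b a z m D ↔ ∀ i, occ S i = hookContent z m D i := by
  simp [WW]

theorem card_WW_empty (b a : ℕ) (z : σ) (m : ℕ) :
    (WW b a z m (∅ : Finset σ)).card = if m = a * b then 1 else 0 := by
  have hrep : ∀ S ∈ WW b a z m (∅ : Finset σ), S = Sym.replicate a (Sym.replicate b z) := by
    intro S hS
    rw [mem_WW] at hS
    rw [Sym.eq_replicate_iff]
    intro t ht
    rw [Sym.eq_replicate_iff]
    intro i hi
    by_contra hiz
    have h1 : 1 ≤ (t : Multiset σ).count i := Multiset.one_le_count_iff_mem.mpr (Sym.mem_coe.mpr hi)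
    have h2 := count_le_occ ht i
    have h3 : hookContent z m (∅ : Finset σ) i = 0 := by simp [hookContent, hiz]
    rw [hS i, h3] at h2
    omega
  split_ifs with h
  · rw [Finset.card_eq_one]
    refine ⟨Sym.replicate a (Sym.replicate b z), ?_⟩
    ext S
    rw [Finset.mem_singleton]
    constructor
    · exact hrep S
    · intro hS
      subst hS
      rw [mem_WW]
      intro i
      rw [occ_replicate]
      by_cases hi : i = z
      · simp [hookContent, hi, h]
      · simp [hookContent, hi]
  · rw [Finset.card_eq_zero]
    ext S
    simp only [Finset.notMem_empty, iff_false]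
    intro hS
    have h1 := hrep S hS
    rw [mem_WW] at hS
    have h2 := hS z
    rw [h1, occ_replicate] at h2
    simp [hookContent] at h2
    exact h h2.symm


omit [Fintype σ] in
/-- content of the block `blkS` plus a remainder with the reduced hook content -/
theorem occ_blk_cons {b a : ℕ} {z x : σ} {m : ℕ} {D T : Finset σ} (hz : z ∉ D) (hx : x ∈ D)
    (hT : T ⊆ D.erase x) (hb : T.card + 1 ≤ b) (hm : b - 1 - T.card ≤ m)
    (S' : Sym (Sym σ b) a)
    (hS' : ∀ i, occ S' i = hookContent z (m - (b - 1 - T.card)) (D \ insert x T) i) (i : σ) :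
    occ (blkS b z x T ::ₛ S') i = hookContent z m D i := by
  have hxz : x ≠ z := fun e => hz (e ▸ hx)
  have hxT : x ∉ T := fun h => (Finset.mem_erase.mp (hT h)).1 rfl
  have hTD : ∀ y ∈ T, y ∈ D := fun y hy => Finset.mem_of_mem_erase (hT hy)
  have hzT : z ∉ T := fun h => hz (hTD z h)
  rw [occ_cons, coe_blkS b z x T hb, count_blkM, hS' i]
  unfold hookContent
  by_cases h1 : i = z
  · subst h1
    simp [Ne.symm hxz, hzT]
    omega
  · by_cases h2 : i = x
    · subst h2
      simp [hxz, hxT, hx]
    · by_cases h3 : i ∈ T
      · simp [h1, h2, h3, hTD i h3]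
      · simp [h1, h2, h3]

theorem card_WW_succ (b a : ℕ) (z : σ) (m : ℕ) (D : Finset σ) (hz : z ∉ D) (x : σ) (hx : x ∈ D) :
    (WW b (a + 1) z m D).card
      = ∑ T ∈ (D.erase x).powerset.filter (fun T => T.card + 1 ≤ b ∧ b - 1 - T.card ≤ m),
          (WW b a z (m - (b - 1 - T.card)) (D \ insert x T)).card := by
  have hxz : x ≠ z := fun e => hz (e ▸ hx)
  rw [← Finset.card_sigma]
  symm
  apply Finset.card_bij (fun p _ => blkS b z x p.1 ::ₛ p.2)
  · -- maps into
    rintro ⟨T, S'⟩ hp
    rw [Finset.mem_sigma, Finset.mem_filter, Finset.mem_powerset, mem_WW] at hp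
    obtain ⟨⟨hT, hb, hm⟩, hS'⟩ := hp
    rw [mem_WW]
    intro i
    exact occ_blk_cons hz hx hT hb hm S' hS' i
  · -- injective
    rintro ⟨T, S'⟩ hp ⟨T', S''⟩ hp' heq
    rw [Finset.mem_sigma, Finset.mem_filter, Finset.mem_powerset, mem_WW] at hp hp'
    obtain ⟨⟨hT, hb, hm⟩, hS'⟩ := hp
    obtain ⟨⟨hT', hb', hm'⟩, hS''⟩ := hp'
    simp only at heq
    have hxT : x ∉ T := fun h => (Finset.mem_erase.mp (hT h)).1 rfl
    have hxT' : x ∉ T' := fun h => (Finset.mem_erase.mp (hT' h)).1 rfl
    have hzT : z ∉ T := fun h => hz (Finset.mem_of_mem_erase (hT h))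
    have hzT' : z ∉ T' := fun h => hz (Finset.mem_of_mem_erase (hT' h))
    -- the block of the left side is a member of the right side
    have hmem : blkS b z x T ∈ blkS b z x T' ::ₛ S'' := by
      rw [← heq]; exact Sym.mem_cons_self _ _
    have hblk : blkS b z x T = blkS b z x T' := by
      rcases Sym.mem_cons.mp hmem with h | h
      · exact h
      · exfalso
        have h1 := count_le_occ h x
        rw [coe_blkS b z x T hb, count_blkM, hS'' x] at h1
        have h0 : hookContent z (m - (b - 1 - T'.card)) (D \ insert x T') x = 0 := by
          simp [hookContent, hxz]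
        rw [h0] at h1
        simp at h1
    have hTT : T = T' := by
      have hcoe : blkM b z x T = blkM b z x T' := by
        rw [← coe_blkS b z x T hb, ← coe_blkS b z x T' hb', hblk]
      ext i
      have hc := congrArg (fun M => Multiset.count i M) hcoe
      simp only [count_blkM] at hc
      by_cases h1 : i = z
      · subst h1; simp [hzT, hzT']
      · by_cases h2 : i = x
        · subst h2; simp [hxT, hxT']
        · simp only [h1, h2, if_false, zero_add, add_zero] at hc
          constructor
          · intro hi
            by_contra hn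
            simp [hi, hn] at hc
          · intro hi
            by_contra hn
            simp [hi, hn] at hc
    subst hTT
    have := (Sym.cons_inj_right _ _ _).mp heq
    subst this
    rfl
  · -- surjective
    intro S hS
    rw [mem_WW] at hS
    -- a block containing x
    have hex : ∃ t ∈ S, x ∈ (t : Multiset σ) := by
      by_contra hno
      simp only [not_exists, not_and] at hno
      have h0 : occ S x = 0 := by
        unfold occ
        apply Multiset.sum_eq_zero
        intro n hn
        rw [Multiset.mem_map] at hn
        obtain ⟨t, ht, rfl⟩ := hn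
        exact Multiset.count_eq_zero.mpr (hno t (Sym.mem_coe.mp ht))
      have h1 := hS x
      rw [h0] at h1
      simp [hookContent, hxz, hx] at h1
    obtain ⟨t, ht, hxt⟩ := hex
    obtain ⟨S', rfl⟩ := Sym.exists_cons_of_mem ht
    have hS2 : ∀ i, (t : Multiset σ).count i + occ S' i = hookContent z m D i := by
      intro i; rw [← occ_cons]; exact hS i
    -- counts of letters other than z are at most one
    have hle : ∀ i, i ≠ z → (t : Multiset σ).count i ≤ 1 := by
      intro i hi
      have := hS2 i
      have h1 : hookContent z m D i ≤ 1 := by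
        unfold hookContent; rw [if_neg hi]; split_ifs <;> omega
      omega
    have hinD : ∀ i, i ≠ z → i ∈ (t : Multiset σ) → i ∈ D := by
      intro i hi hmem
      have h1 : 1 ≤ (t : Multiset σ).count i := Multiset.one_le_count_iff_mem.mpr hmem
      have h2 := hS2 i
      by_contra hnD
      have h3 : hookContent z m D i = 0 := by simp [hookContent, hi, hnD]
      omega
    set r : Multiset σ := (t : Multiset σ).filter (fun i => ¬ i = z) with hr
    have hrnodup : r.Nodup := by
      rw [Multiset.nodup_iff_count_le_one]
      intro i
      rw [hr, Multiset.count_filter]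
      by_cases h : i = z
      · simp [h]
      · simp only [h, not_false_eq_true, if_true]
        exact hle i h
    have hxr : x ∈ r.toFinset := by
      rw [Multiset.mem_toFinset, hr, Multiset.mem_filter]
      exact ⟨hxt, hxz⟩
    set T : Finset σ := r.toFinset.erase x with hTdef
    have hmemT : ∀ i, i ∈ T ↔ i ≠ x ∧ i ∈ (t : Multiset σ) ∧ i ≠ z := by
      intro i
      rw [hTdef, Finset.mem_erase, Multiset.mem_toFinset, hr, Multiset.mem_filter]
    have hT : T ⊆ D.erase x := by
      intro i hi
      rw [hmemT] at hi
      rw [Finset.mem_erase]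
      exact ⟨hi.1, hinD i hi.2.2 hi.2.1⟩
    have hxT : x ∉ T := fun h => ((hmemT x).mp h).1 rfl
    have hzT : z ∉ T := fun h => ((hmemT z).mp h).2.2 rfl
    -- the card of t
    have hcard : (t : Multiset σ).count z + (T.card + 1) = b := by
      have h1 : Multiset.card ((t : Multiset σ).filter (fun i => i = z))
          + Multiset.card ((t : Multiset σ).filter (fun i => ¬ i = z)) = b := by
        rw [← Multiset.card_add, Multiset.filter_add_not, Sym.card_coe]
      have h2 : Multiset.card ((t : Multiset σ).filter (fun i => i = z))
          = (t : Multiset σ).count z := by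
        rw [Multiset.filter_eq', Multiset.card_replicate]
      have h3 : Multiset.card r = T.card + 1 := by
        rw [← Multiset.toFinset_card_of_nodup hrnodup, hTdef, Finset.card_erase_of_mem hxr]
        have : 0 < r.toFinset.card := Finset.card_pos.mpr ⟨x, hxr⟩
        omega
      rw [h2, ← hr, h3] at h1
      exact h1
    have hb : T.card + 1 ≤ b := by omega
    have hcz : (t : Multiset σ).count z = b - 1 - T.card := by omega
    have hm : b - 1 - T.card ≤ m := by
      have := hS2 z
      simp only [hookContent, if_true] at this
      omega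
    -- t is the block
    have htblk : t = blkS b z x T := by
      apply Sym.ext
      rw [coe_blkS b z x T hb]
      ext i
      rw [count_blkM]
      by_cases h1 : i = z
      · subst h1
        simp [Ne.symm hxz, hzT, hcz]
      · by_cases h2 : i = x
        · subst h2
          have h3 : 1 ≤ (t : Multiset σ).count i := Multiset.one_le_count_iff_mem.mpr hxt
          have h4 := hle i h1
          simp [h1, hxT]
          omega
        · by_cases h3 : i ∈ T
          · have h4 : 1 ≤ (t : Multiset σ).count i :=
              Multiset.one_le_count_iff_mem.mpr ((hmemT i).mp h3).2.1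
            have h5 := hle i h1
            simp [h1, h2, h3]
            omega
          · have h4 : i ∉ (t : Multiset σ) := fun hmem => h3 ((hmemT i).mpr ⟨h2, hmem, h1⟩)
            simp [h1, h2, h3, Multiset.count_eq_zero.mpr h4]
    refine ⟨⟨T, S'⟩, ?_, ?_⟩
    · rw [Finset.mem_sigma, Finset.mem_filter, Finset.mem_powerset, mem_WW]
      refine ⟨⟨hT, hb, hm⟩, ?_⟩
      intro i
      have h2 := hS2 i
      rw [htblk, coe_blkS b z x T hb, count_blkM] at h2
      unfold hookContent at h2 ⊢
      have hTD : ∀ y ∈ T, y ∈ D := fun y hy => Finset.mem_of_mem_erase (hT hy)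
      by_cases h1 : i = z
      · subst h1
        simp [Ne.symm hxz, hzT] at h2 ⊢
        omega
      · by_cases h3 : i = x
        · subst h3
          simp [hxz, hxT, hx] at h2 ⊢
          exact h2
        · by_cases h4 : i ∈ T
          · simp [h1, h3, h4, hTD i h4] at h2 ⊢
            exact h2
          · simp [h1, h3, h4] at h2 ⊢
            exact h2
    · simp only
      rw [htblk]


omit [DecidableEq σ] [Fintype σ] in
theorem cnt_eq_zero_of_gt (b a k : ℕ) (h : a * b < k) : cnt b a k = 0 := by
  induction a generalizing k with
  | zero =>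
    have : k ≠ 0 := by omega
    simp [cnt, this]
  | succ a ih =>
    cases k with
    | zero => omega
    | succ k =>
      simp only [cnt]
      apply Finset.sum_eq_zero
      intro j hj
      have hj' := Finset.mem_range.mp hj
      split_ifs with hb
      · have h1 : a * b < k - j := by
          have : (a + 1) * b = a * b + b := Nat.succ_mul a b
          omega
        rw [ih _ h1, mul_zero]
      · rfl

theorem card_WW (b a : ℕ) (z : σ) (m : ℕ) (D : Finset σ) (hz : z ∉ D) :
    (WW b a z m D).card = if m + D.card = a * b then cnt b a D.card else 0 := by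
  induction a generalizing m D with
  | zero =>
    rcases D.eq_empty_or_nonempty with rfl | ⟨y, hy⟩
    · rw [card_WW_empty]
      simp [cnt]
    · have h0 : (WW b 0 z m D).card = 0 := by
        rw [Finset.card_eq_zero]
        ext S
        simp only [Finset.notMem_empty, iff_false]
        intro hS
        rw [mem_WW] at hS
        have h1 := hS y
        rw [occ_nil] at h1
        have hyz : y ≠ z := fun e => hz (e ▸ hy)
        simp [hookContent, hyz, hy] at h1
      have hc : 0 < D.card := Finset.card_pos.mpr ⟨y, hy⟩
      rw [h0, if_neg (by omega)]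
  | succ a ih =>
    rcases D.eq_empty_or_nonempty with rfl | ⟨x, hx⟩
    · rw [card_WW_empty]
      simp [cnt]
    · rw [card_WW_succ b a z m D hz x hx]
      have hk : D.card = (D.erase x).card + 1 := by
        rw [Finset.card_erase_of_mem hx]
        have : 0 < D.card := Finset.card_pos.mpr ⟨x, hx⟩
        omega
      set k := (D.erase x).card with hkdef
      have hterm : ∀ T ∈ (D.erase x).powerset.filter
            (fun T => T.card + 1 ≤ b ∧ b - 1 - T.card ≤ m),
          (WW b a z (m - (b - 1 - T.card)) (D \ insert x T)).card
            = if m - (b - 1 - T.card) + (k - T.card) = a * b then cnt b a (k - T.card) else 0 := by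
        intro T hT
        rw [Finset.mem_filter, Finset.mem_powerset] at hT
        have hz' : z ∉ D \ insert x T := fun h => hz (Finset.mem_sdiff.mp h).1
        have hsub : insert x T ⊆ D := by
          intro y hy
          rcases Finset.mem_insert.mp hy with h | h
          · exact h ▸ hx
          · exact Finset.mem_of_mem_erase (hT.1 h)
        have hxT : x ∉ T := fun h => (Finset.mem_erase.mp (hT.1 h)).1 rfl
        have hcard : (D \ insert x T).card = k - T.card := by
          rw [Finset.card_sdiff_of_subset hsub, Finset.card_insert_of_notMem hxT, hk]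
          omega
        rw [ih _ _ hz', hcard]
      rw [Finset.sum_congr rfl hterm, Finset.sum_filter]
      have h2 := Finset.sum_powerset_apply_card
        (f := fun j => if j + 1 ≤ b ∧ b - 1 - j ≤ m then
          (if m - (b - 1 - j) + (k - j) = a * b then cnt b a (k - j) else 0) else 0)
        (x := D.erase x)
      rw [h2, hk]
      have hmul : (a + 1) * b = a * b + b := Nat.succ_mul a b
      by_cases hmk : m + (k + 1) = (a + 1) * b
      · rw [if_pos hmk]
        simp only [cnt, smul_eq_mul]
        apply Finset.sum_congr rfl
        intro j hj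
        have hj' := Finset.mem_range.mp hj
        by_cases hb : j + 1 ≤ b
        · rw [if_pos hb]
          by_cases hm : b - 1 - j ≤ m
          · rw [if_pos ⟨hb, hm⟩, if_pos (by omega)]
          · rw [if_neg (fun h => hm h.2), cnt_eq_zero_of_gt b a (k - j) (by omega)]
        · rw [if_neg hb, if_neg (fun h => hb h.1)]
          simp
      · rw [if_neg hmk]
        apply Finset.sum_eq_zero
        intro j hj
        have hj' := Finset.mem_range.mp hj
        by_cases hg : j + 1 ≤ b ∧ b - 1 - j ≤ m
        · rw [if_pos hg, if_neg (by omega)]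
          simp
        · rw [if_neg hg]
          simp

end Vale.Agent.Lib.P181.Omni
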