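import Vale.Agent.Lib.P181.PlethysmDef
import Vale.Agent.Lib.P181.Omni.SymCount

/-!
Coefficients of the plethysm `h_a[h_b]` count multisets of multisets with given content.
-/

namespace Vale.Agent.Lib.P181.Omni

open Finset MvPolynomial

variable {σ : Type*} [DecidableEq σ]

theorem prod_X_eq_monomial (s : Multiset σ) :
    (s.map (X : σ → MvPolynomial σ ℤ)).prod = monomial (Multiset.toFinsupp s) (1 : ℤ) := by
  induction s using Multiset.induction with
  | empty => simp
  | cons i s ih =>
    rw [Multiset.map_cons, Multiset.prod_cons, ih]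
    have : Multiset.toFinsupp (i ::ₘ s) = Finsupp.single i 1 + Multiset.toFinsupp s := by
      rw [← Multiset.singleton_add, map_add, Multiset.toFinsupp_singleton]
    rw [this, monomial_single_add, pow_one]

theorem prod_monomial_eq {b : ℕ} (S : Multiset (Sym σ b)) :
    (S.map (fun t : Sym σ b => ((t : Multiset σ).map (X : σ → MvPolynomial σ ℤ)).prod)).prod
      = monomial ((S.map (fun t : Sym σ b => Multiset.toFinsupp (t : Multiset σ))).sum) (1 : ℤ) := by
  induction S using Multiset.induction with
  | empty => simp
  | cons t S ih =>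
    rw [Multiset.map_cons, Multiset.prod_cons, ih, Multiset.map_cons, Multiset.sum_cons,
      prod_X_eq_monomial, monomial_mul, one_mul]

theorem sum_toFinsupp_apply {b : ℕ} (S : Multiset (Sym σ b)) (i : σ) :
    ((S.map (fun t : Sym σ b => Multiset.toFinsupp (t : Multiset σ))).sum) i
      = (S.map (fun t : Sym σ b => (t : Multiset σ).count i)).sum := by
  induction S using Multiset.induction with
  | empty => simp
  | cons t S ih =>
    rw [Multiset.map_cons, Multiset.sum_cons, Multiset.map_cons, Multiset.sum_cons,
      Finsupp.add_apply, ih, Multiset.toFinsupp_apply]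

variable [Fintype σ]

theorem hPleth_eq_sum (a b : ℕ) :
    hPleth σ a b = ∑ S : Sym (Sym σ b) a,
      monomial (((S : Multiset (Sym σ b)).map
        (fun t : Sym σ b => Multiset.toFinsupp (t : Multiset σ))).sum) (1 : ℤ) := by
  unfold hPleth hsymm
  rw [map_sum]
  apply Finset.sum_congr rfl
  intro S _
  rw [map_multiset_prod, Multiset.map_map, ← prod_monomial_eq]
  congr 1
  apply Multiset.map_congr rfl
  intro t _
  simp

theorem coeff_hPleth (a b : ℕ) (μ : σ →₀ ℕ) :
    coeff μ (hPleth σ a b)
      = ((Finset.univ.filter (fun S : Sym (Sym σ b) a => ∀ i, occ S i = μ i)).card : ℤ) := by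
  rw [hPleth_eq_sum, coeff_sum]
  simp only [coeff_monomial]
  rw [Finset.sum_boole]
  congr 2
  apply Finset.filter_congr
  intro S _
  constructor
  · intro h i
    rw [← h]
    exact (sum_toFinsupp_apply _ i).symm
  · intro h
    ext i
    rw [← h i]
    exact sum_toFinsupp_apply _ i

/-- coefficient of a monomial with at most one exponent exceeding one -/
theorem coeff_hPleth_hook (a b : ℕ) (μ : σ →₀ ℕ) (z : σ) (hμ : ∀ i, i ≠ z → μ i ≤ 1) :
    coeff μ (hPleth σ a b)
      = ((if μ z + (μ.support.erase z).card = a * b then cnt b a (μ.support.erase z).card else 0 : ℕ) : ℤ) := by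
  rw [coeff_hPleth]
  have hz : z ∉ μ.support.erase z := Finset.notMem_erase z _
  rw [← card_WW b a z (μ z) (μ.support.erase z) hz]
  congr 2
  unfold WW
  apply Finset.filter_congr
  intro S _
  have hfun : ∀ i, μ i = hookContent z (μ z) (μ.support.erase z) i := by
    intro i
    unfold hookContent
    by_cases h1 : i = z
    · subst h1; simp
    · rw [if_neg h1]
      have := hμ i h1
      by_cases h2 : i ∈ μ.support.erase z
      · rw [if_pos h2]
        have h3 : μ i ≠ 0 := Finsupp.mem_support_iff.mp (Finset.mem_of_mem_erase h2)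
        omega
      · rw [if_neg h2]
        by_contra h3
        exact h2 (Finset.mem_erase.mpr ⟨h1, Finsupp.mem_support_iff.mpr h3⟩)
  constructor
  · intro h i; rw [h i, hfun i]
  · intro h i; rw [h i, ← hfun i]

end Vale.Agent.Lib.P181.Omni
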