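import Mathlib

/-!
Truncated exponential polynomials and coefficientwise inequalities between their products
(a Robin Hood / majorization argument).  Used for the hook-weight case of Foulkes' conjecture.
-/

namespace Vale.Agent.Lib.P181.Omni

open Polynomial Finset

/-- coefficientwise order on rational polynomials -/
def CLe (p q : ℚ[X]) : Prop := ∀ k, p.coeff k ≤ q.coeff k

/-- all coefficients nonnegative -/
def CNN (p : ℚ[X]) : Prop := ∀ k, 0 ≤ p.coeff k

theorem CLe.refl (p : ℚ[X]) : CLe p p := fun _ => le_rfl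

theorem CLe.trans {p q r : ℚ[X]} (h1 : CLe p q) (h2 : CLe q r) : CLe p r :=
  fun k => (h1 k).trans (h2 k)

theorem CLe.of_eq {p q : ℚ[X]} (h : p = q) : CLe p q := h ▸ CLe.refl p

theorem CNN.add {p q : ℚ[X]} (hp : CNN p) (hq : CNN q) : CNN (p + q) := fun k => by
  rw [coeff_add]; exact add_nonneg (hp k) (hq k)

theorem CNN.mul {p q : ℚ[X]} (hp : CNN p) (hq : CNN q) : CNN (p * q) := fun k => by
  rw [coeff_mul]
  exact Finset.sum_nonneg fun x _ => mul_nonneg (hp _) (hq _)

theorem CNN.one : CNN (1 : ℚ[X]) := fun k => by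
  rw [coeff_one]; split_ifs <;> norm_num

theorem CNN.zero : CNN (0 : ℚ[X]) := fun k => by simp

theorem CNN.pow {p : ℚ[X]} (hp : CNN p) (n : ℕ) : CNN (p ^ n) := by
  induction n with
  | zero => simpa using CNN.one
  | succ n ih => rw [pow_succ]; exact ih.mul hp

theorem CNN.sum {ι : Type*} (s : Finset ι) (f : ι → ℚ[X]) (h : ∀ i ∈ s, CNN (f i)) :
    CNN (∑ i ∈ s, f i) := fun k => by
  rw [finsetSum_coeff]
  exact Finset.sum_nonneg fun i hi => h i hi k

theorem CNN.X : CNN (X : ℚ[X]) := fun k => by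
  rw [coeff_X]; split_ifs <;> norm_num

theorem CNN.C_mul {c : ℚ} (hc : 0 ≤ c) {p : ℚ[X]} (hp : CNN p) : CNN (C c * p) := fun k => by
  rw [coeff_C_mul]; exact mul_nonneg hc (hp k)

theorem CLe.add {p q p' q' : ℚ[X]} (h1 : CLe p q) (h2 : CLe p' q') : CLe (p + p') (q + q') :=
  fun k => by rw [coeff_add, coeff_add]; exact add_le_add (h1 k) (h2 k)

theorem CLe.sum {ι : Type*} (s : Finset ι) (f g : ι → ℚ[X]) (h : ∀ i ∈ s, CLe (f i) (g i)) :
    CLe (∑ i ∈ s, f i) (∑ i ∈ s, g i) := fun k => by
  rw [finsetSum_coeff, finsetSum_coeff]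
  exact Finset.sum_le_sum fun i hi => h i hi k

theorem CLe.mul_right {p q r : ℚ[X]} (h : CLe p q) (hr : CNN r) : CLe (p * r) (q * r) :=
  fun k => by
    rw [coeff_mul, coeff_mul]
    exact Finset.sum_le_sum fun x _ => mul_le_mul_of_nonneg_right (h _) (hr _)

theorem CLe.mul_left {p q r : ℚ[X]} (h : CLe p q) (hr : CNN r) : CLe (r * p) (r * q) := by
  rw [mul_comm r p, mul_comm r q]; exact h.mul_right hr

theorem CLe.le_add_of_CNN {p q : ℚ[X]} (hq : CNN q) : CLe p (p + q) := fun k => by
  rw [coeff_add]; exact le_add_of_nonneg_right (hq k)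

/-- the truncated exponential without constant term: `∑_{1 ≤ s ≤ m} X^s / s!` -/
noncomputable def PP (m : ℕ) : ℚ[X] :=
  ∑ s ∈ Finset.Icc 1 m, C (1 / (s.factorial : ℚ)) * X ^ s

theorem PP_zero : PP 0 = 0 := by simp [PP]

theorem PP_succ (m : ℕ) :
    PP (m + 1) = PP m + C (1 / ((m + 1).factorial : ℚ)) * X ^ (m + 1) := by
  unfold PP
  rw [Finset.sum_Icc_succ_top (by omega)]

theorem PP_one : PP 1 = X := by
  rw [PP_succ, PP_zero]; simp

theorem CNN_PP (m : ℕ) : CNN (PP m) := by
  unfold PP
  apply CNN.sum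
  intro s _
  apply CNN.C_mul (by positivity)
  exact CNN.X.pow s

theorem coeff_PP (m k : ℕ) :
    (PP m).coeff k = if 1 ≤ k ∧ k ≤ m then 1 / (k.factorial : ℚ) else 0 := by
  unfold PP
  rw [finsetSum_coeff]
  simp only [coeff_C_mul, coeff_X_pow]
  split_ifs with h
  · rw [Finset.sum_eq_single k]
    · simp
    · intro b _ hb
      simp [Ne.symm hb]
    · intro hk
      exact absurd (Finset.mem_Icc.mpr h) hk
  · apply Finset.sum_eq_zero
    intro s hs
    have hs' := Finset.mem_Icc.mp hs
    have : k ≠ s := by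
      intro hks; subst hks; exact h hs'
    simp [this]

theorem fact_ineq (u q d : ℕ) (hu : u ≤ q) :
    (q + 1).factorial * (u + d).factorial ≤ (q + 1 + d).factorial * u.factorial := by
  induction d with
  | zero => simp
  | succ d ih =>
    have h1 : (u + (d + 1)).factorial = (u + d + 1) * (u + d).factorial := by
      rw [← add_assoc, Nat.factorial_succ]
    have h2 : (q + 1 + (d + 1)).factorial = (q + 1 + d + 1) * (q + 1 + d).factorial := by
      rw [← add_assoc, Nat.factorial_succ]
    rw [h1, h2]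
    calc (q + 1).factorial * ((u + d + 1) * (u + d).factorial)
        = (u + d + 1) * ((q + 1).factorial * (u + d).factorial) := by ring
      _ ≤ (u + d + 1) * ((q + 1 + d).factorial * u.factorial) := Nat.mul_le_mul_left _ ih
      _ ≤ (q + 1 + d + 1) * ((q + 1 + d).factorial * u.factorial) :=
          Nat.mul_le_mul_right _ (by omega)
      _ = (q + 1 + d + 1) * (q + 1 + d).factorial * u.factorial := by ring

/-- Robin Hood inequality: moving one unit of truncation from the larger index to the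
smaller index increases the product coefficientwise. -/
theorem robin_hood (p q : ℕ) (h : q ≤ p) : CLe (PP (p + 1) * PP q) (PP p * PP (q + 1)) := by
  intro k
  rw [PP_succ p, PP_succ q, add_mul, mul_add, coeff_add, coeff_add]
  have e1 : (C (1 / ((p + 1).factorial : ℚ)) * X ^ (p + 1) * PP q).coeff k
      = if p + 1 ≤ k then (1 / ((p + 1).factorial : ℚ)) * (PP q).coeff (k - (p + 1)) else 0 := by
    rw [mul_comm (C _ * X ^ (p + 1)) (PP q), ← mul_assoc, coeff_mul_X_pow', coeff_mul_C]
    split_ifs <;> ring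
  have e2 : (PP p * (C (1 / ((q + 1).factorial : ℚ)) * X ^ (q + 1))).coeff k
      = if q + 1 ≤ k then (1 / ((q + 1).factorial : ℚ)) * (PP p).coeff (k - (q + 1)) else 0 := by
    rw [← mul_assoc, coeff_mul_X_pow', coeff_mul_C]
    split_ifs <;> ring
  rw [e1, e2]
  apply add_le_add_right
  rw [coeff_PP, coeff_PP]
  by_cases h1 : p + 1 ≤ k ∧ 1 ≤ k - (p + 1) ∧ k - (p + 1) ≤ q
  · obtain ⟨h1a, h1b, h1c⟩ := h1
    have h2a : q + 1 ≤ k := by omega
    have h2b : 1 ≤ k - (q + 1) ∧ k - (q + 1) ≤ p := by omega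
    rw [if_pos h1a, if_pos ⟨h1b, h1c⟩, if_pos h2a, if_pos h2b]
    -- 1/((p+1)! u!) ≤ 1/((q+1)! (u+d)!)
    obtain ⟨d, rfl⟩ := Nat.exists_eq_add_of_le h
    set u := k - (q + d + 1) with hu
    have hk : k - (q + 1) = u + d := by omega
    rw [hk]
    have key := fact_ineq u q d h1c
    have key' : (((q + 1).factorial * (u + d).factorial : ℕ) : ℚ)
        ≤ (((q + 1 + d).factorial * u.factorial : ℕ) : ℚ) := by exact_mod_cast key
    push_cast at key'
    have e3 : q + d + 1 = q + 1 + d := by ring
    rw [e3]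
    rw [one_div, one_div, one_div, one_div, ← mul_inv, ← mul_inv]
    apply inv_anti₀ (by positivity) key'
  · have : (if p + 1 ≤ k then (1 / ((p + 1).factorial : ℚ)) *
        (if 1 ≤ k - (p + 1) ∧ k - (p + 1) ≤ q then 1 / ((k - (p + 1)).factorial : ℚ) else 0)
        else 0) = 0 := by
      by_cases h3 : p + 1 ≤ k
      · rw [if_pos h3, if_neg (fun h4 => h1 ⟨h3, h4.1, h4.2⟩), mul_zero]
      · rw [if_neg h3]
    rw [this]
    split_ifs <;> positivity


/-- first stage of the one-round transfer: only factors of the smaller type -/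
theorem round_e (c e : ℕ) (he : e ≤ c) :
    CLe (X * PP (c + 1) ^ e) (PP (1 + e) * PP c ^ e) := by
  induction e with
  | zero => simp [PP_one]; exact CLe.refl _
  | succ e ih =>
    have ih' := ih (by omega)
    have step1 : CLe (X * PP (c + 1) ^ (e + 1)) (PP (1 + e) * PP c ^ e * PP (c + 1)) := by
      have := ih'.mul_right (CNN_PP (c + 1))
      rw [pow_succ, ← mul_assoc]; exact this
    have rh : CLe (PP (c + 1) * PP (1 + e)) (PP c * PP (1 + e + 1)) :=
      robin_hood c (1 + e) (by omega)
    have step2 : CLe (PP (1 + e) * PP c ^ e * PP (c + 1)) (PP (1 + (e + 1)) * PP c ^ (e + 1)) := by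
      have := rh.mul_left ((CNN_PP c).pow e)
      have e1 : PP c ^ e * (PP (c + 1) * PP (1 + e)) = PP (1 + e) * PP c ^ e * PP (c + 1) := by ring
      have e2 : PP c ^ e * (PP c * PP (1 + e + 1)) = PP (1 + (e + 1)) * PP c ^ (e + 1) := by
        rw [pow_succ]; ring_nf
      rw [e1, e2] at this; exact this
    exact step1.trans step2

/-- one round of transfers: every one of the `i + e` big factors gives one unit to a new factor -/
theorem round (c i e : ℕ) (h : i + e ≤ c) :
    CLe (X * PP (c + 2) ^ i * PP (c + 1) ^ e) (PP (1 + i + e) * PP (c + 1) ^ i * PP c ^ e) := by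
  induction i with
  | zero =>
    have := round_e c e (by omega)
    simpa using this
  | succ i ih =>
    have ih' := ih (by omega)
    have step1 : CLe (X * PP (c + 2) ^ (i + 1) * PP (c + 1) ^ e)
        (PP (1 + i + e) * PP (c + 1) ^ i * PP c ^ e * PP (c + 2)) := by
      have := ih'.mul_right (CNN_PP (c + 2))
      have e1 : X * PP (c + 2) ^ i * PP (c + 1) ^ e * PP (c + 2)
          = X * PP (c + 2) ^ (i + 1) * PP (c + 1) ^ e := by rw [pow_succ]; ring
      rw [e1] at this; exact this
    have rh : CLe (PP (c + 1 + 1) * PP (1 + i + e)) (PP (c + 1) * PP (1 + i + e + 1)) :=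
      robin_hood (c + 1) (1 + i + e) (by omega)
    have step2 : CLe (PP (1 + i + e) * PP (c + 1) ^ i * PP c ^ e * PP (c + 2))
        (PP (1 + (i + 1) + e) * PP (c + 1) ^ (i + 1) * PP c ^ e) := by
      have := rh.mul_left (((CNN_PP (c + 1)).pow i).mul ((CNN_PP c).pow e))
      have e1 : PP (c + 1) ^ i * PP c ^ e * (PP (c + 1 + 1) * PP (1 + i + e))
          = PP (1 + i + e) * PP (c + 1) ^ i * PP c ^ e * PP (c + 2) := by ring
      have e2 : PP (c + 1) ^ i * PP c ^ e * (PP (c + 1) * PP (1 + i + e + 1))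
          = PP (1 + (i + 1) + e) * PP (c + 1) ^ (i + 1) * PP c ^ e := by
        rw [pow_succ]; ring_nf
      rw [e1, e2] at this; exact this
    exact step1.trans step2

/-- `G r c = ∑_{i<r} P_c^i P_{c-1}^{r-1-i}` -/
noncomputable def GG (r c : ℕ) : ℚ[X] :=
  ∑ i ∈ Finset.range r, PP c ^ i * PP (c - 1) ^ (r - 1 - i)

theorem CNN_GG (r c : ℕ) : CNN (GG r c) := by
  unfold GG
  apply CNN.sum
  intro i _
  exact ((CNN_PP c).pow i).mul ((CNN_PP (c - 1)).pow _)

theorem GG_mul (r c : ℕ) (hc : 1 ≤ c) :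
    X ^ c * GG r c = C (c.factorial : ℚ) * (PP c ^ r - PP (c - 1) ^ r) := by
  have h := geom_sum₂_mul (PP c) (PP (c - 1)) r
  obtain ⟨c', rfl⟩ := Nat.exists_eq_add_of_le hc
  have hd : PP (1 + c') - PP (1 + c' - 1) = C (1 / ((1 + c').factorial : ℚ)) * X ^ (1 + c') := by
    have : 1 + c' - 1 = c' := by omega
    rw [this, add_comm 1 c', PP_succ]; ring
  rw [hd] at h
  unfold GG
  rw [← h]
  have hne : ((1 + c').factorial : ℚ) ≠ 0 := by positivity
  have : C ((1 + c').factorial : ℚ) * C (1 / ((1 + c').factorial : ℚ)) = 1 := by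
    rw [← C_mul, mul_one_div_cancel hne, C_1]
  calc X ^ (1 + c') * ∑ i ∈ Finset.range r, PP (1 + c') ^ i * PP (1 + c' - 1) ^ (r - 1 - i)
      = (C ((1 + c').factorial : ℚ) * C (1 / ((1 + c').factorial : ℚ))) *
        (X ^ (1 + c') * ∑ i ∈ Finset.range r, PP (1 + c') ^ i * PP (1 + c' - 1) ^ (r - 1 - i)) := by
        rw [this, one_mul]
    _ = _ := by ring

theorem GG_succ (c r : ℕ) : GG (c + 1) r = PP (r - 1) ^ c + PP r * GG c r := by
  unfold GG
  rw [Finset.sum_range_succ', Finset.mul_sum]
  simp only [pow_zero, one_mul, Nat.add_sub_cancel, Nat.sub_zero]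
  rw [add_comm]
  congr 1
  apply Finset.sum_congr rfl
  intro j hj
  have hj' := Finset.mem_range.mp hj
  have : c - (j + 1) = c - 1 - j := by omega
  rw [this, pow_succ]; ring

/-- the key comparison: `X^c G(r,c) ≤ X^r G(c,r)` for `1 ≤ r ≤ c` -/
theorem key_GG (r c : ℕ) (hr : 1 ≤ r) (hrc : r ≤ c) : CLe (X ^ c * GG r c) (X ^ r * GG c r) := by
  induction c, hrc using Nat.le_induction with
  | base => exact CLe.refl _
  | succ c hrc ih =>
    -- X^{c+1} G(r,c+1) = X^c * Σ X P_{c+1}^i P_c^{r-1-i}
    obtain ⟨c', rfl⟩ := Nat.exists_eq_add_of_le (hr.trans hrc)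
    have step1 : CLe (X ^ (1 + c' + 1) * GG r (1 + c' + 1)) (PP r * (X ^ (1 + c') * GG r (1 + c'))) := by
      have e1 : X ^ (1 + c' + 1) * GG r (1 + c' + 1)
          = X ^ (1 + c') * ∑ i ∈ Finset.range r,
              X * PP (c' + 2) ^ i * PP (c' + 1) ^ (r - 1 - i) := by
        unfold GG
        rw [Finset.mul_sum, Finset.mul_sum]
        apply Finset.sum_congr rfl
        intro i _
        have a1 : 1 + c' + 1 = c' + 2 := by ring
        have a2 : 1 + c' + 1 - 1 = c' + 1 := by omega
        rw [a2, a1, show (c' + 2) = (1 + c') + 1 by ring, pow_succ X]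
        ring
      have e2 : PP r * (X ^ (1 + c') * GG r (1 + c'))
          = X ^ (1 + c') * ∑ i ∈ Finset.range r,
              PP r * PP (c' + 1) ^ i * PP c' ^ (r - 1 - i) := by
        unfold GG
        rw [Finset.mul_sum, Finset.mul_sum, Finset.mul_sum]
        apply Finset.sum_congr rfl
        intro i _
        have a1 : 1 + c' = c' + 1 := by ring
        have a2 : 1 + c' - 1 = c' := by omega
        rw [a2, a1]
        ring
      rw [e1, e2]
      apply CLe.mul_left _ (CNN.X.pow _)
      apply CLe.sum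
      intro i hi
      have hi' := Finset.mem_range.mp hi
      have := round c' i (r - 1 - i) (by omega)
      have a3 : 1 + i + (r - 1 - i) = r := by omega
      rw [a3] at this
      exact this
    have step2 : CLe (PP r * (X ^ (1 + c') * GG r (1 + c'))) (PP r * (X ^ r * GG (1 + c') r)) :=
      ih.mul_left (CNN_PP r)
    have step3 : CLe (PP r * (X ^ r * GG (1 + c') r)) (X ^ r * GG (1 + c' + 1) r) := by
      rw [GG_succ]
      have : X ^ r * (PP (r - 1) ^ (1 + c') + PP r * GG (1 + c') r)
          = PP r * (X ^ r * GG (1 + c') r) + X ^ r * PP (r - 1) ^ (1 + c') := by ring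
      rw [this]
      exact CLe.le_add_of_CNN ((CNN.X.pow r).mul ((CNN_PP (r - 1)).pow _))
    exact (step1.trans step2).trans step3

/-- doubly refined inequality in polynomial form -/
theorem key_DR (r c : ℕ) (hr : 1 ≤ r) (hrc : r ≤ c) (k : ℕ) :
    (c.factorial : ℚ) * (PP c ^ r - PP (c - 1) ^ r).coeff k
      ≤ (r.factorial : ℚ) * (PP r ^ c - PP (r - 1) ^ c).coeff k := by
  have h := key_GG r c hr hrc k
  rw [GG_mul r c (hr.trans hrc), GG_mul c r hr, coeff_C_mul, coeff_C_mul] at h
  exact h

/-- exponential generating polynomial of set partitions with at most `a` blocks of size at most `b` -/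
noncomputable def UU (a b : ℕ) : ℚ[X] :=
  ∑ r ∈ Finset.range (a + 1), C (1 / (r.factorial : ℚ)) * PP b ^ r

theorem UU_succ_left (a b : ℕ) :
    UU (a + 1) b = UU a b + C (1 / ((a + 1).factorial : ℚ)) * PP b ^ (a + 1) := by
  unfold UU
  rw [Finset.sum_range_succ]

theorem key_UU (a b : ℕ) (hab : a ≤ b) : CLe (UU a b) (UU b a) := by
  induction b, hab using Nat.le_induction with
  | base => exact CLe.refl _
  | succ b hab ih =>
    -- U(a,b+1) = U(a,b) + Σ_{r ≤ a} (P_{b+1}^r - P_b^r)/r!
    intro k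
    have e1 : (UU a (b + 1)).coeff k = (UU a b).coeff k +
        ∑ r ∈ Finset.range (a + 1),
          (1 / (r.factorial : ℚ)) * (PP (b + 1) ^ r - PP b ^ r).coeff k := by
      unfold UU
      rw [finsetSum_coeff, finsetSum_coeff, ← Finset.sum_add_distrib]
      apply Finset.sum_congr rfl
      intro r _
      rw [coeff_C_mul, coeff_C_mul, coeff_sub]; ring
    have e2 : (UU (b + 1) a).coeff k = (UU b a).coeff k +
        (1 / ((b + 1).factorial : ℚ)) * (PP a ^ (b + 1)).coeff k := by
      rw [UU_succ_left, coeff_add, coeff_C_mul]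
    rw [e1, e2]
    apply add_le_add (ih k)
    -- bound each term
    have hterm : ∀ r ∈ Finset.range (a + 1),
        (1 / (r.factorial : ℚ)) * (PP (b + 1) ^ r - PP b ^ r).coeff k
          ≤ (1 / ((b + 1).factorial : ℚ)) *
            ((PP r ^ (b + 1)).coeff k - (PP (r - 1) ^ (b + 1)).coeff k) := by
      intro r hr
      have hr' := Finset.mem_range.mp hr
      rcases Nat.eq_zero_or_pos r with h0 | hpos
      · subst h0
        simp [PP_zero]
      · have := key_DR r (b + 1) hpos (by omega) k
        rw [Nat.add_sub_cancel] at this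
        simp only [coeff_sub] at this
        have hr1 : (0 : ℚ) < r.factorial := by positivity
        have hb1 : (0 : ℚ) < (b + 1).factorial := by positivity
        rw [one_div, one_div, inv_mul_le_iff₀ hr1, ← mul_assoc, mul_comm (r.factorial : ℚ),
          mul_assoc, le_inv_mul_iff₀ hb1]
        simp only [coeff_sub]
        exact this
    refine (Finset.sum_le_sum hterm).trans ?_
    rw [← Finset.mul_sum]
    apply mul_le_mul_of_nonneg_left _ (by positivity)
    -- telescoping
    have tel : ∀ n : ℕ, ∑ r ∈ Finset.range (n + 1),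
        ((PP r ^ (b + 1)).coeff k - (PP (r - 1) ^ (b + 1)).coeff k)
          = (PP n ^ (b + 1)).coeff k := by
      intro n
      induction n with
      | zero => simp [PP_zero]
      | succ n ihn =>
        rw [Finset.sum_range_succ, ihn]
        simp
    rw [tel a]

end Vale.Agent.Lib.P181.Omni
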